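import Mathlib
import Vale.Agent.Lib.P227.Main

/-!
Log-concavity in the logarithms of all heights of the volume of the sections of a box
by a slab: the symmetric polytopes of `ℝⁿ` with `n + 1` pairs of facets.
-/

namespace Vale.Agent.Results.P227.A_boxsection

open MeasureTheory

theorem result {n : ℕ} {a₀ a₁ : Fin n → ℝ} {b₀ b₁ : ℝ} (ha₀ : ∀ i, 0 < a₀ i)
    (ha₁ : ∀ i, 0 < a₁ i) (hb₀ : 0 < b₀) (hb₁ : 0 < b₁) {lam : ℝ} (h0 : 0 ≤ lam) (h1 : lam ≤ 1) :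
    (volume {x : Fin n → ℝ | (∀ i, |x i| ≤ a₀ i) ∧ |∑ i, x i| ≤ b₀}).toReal ^ (1 - lam)
        * (volume {x : Fin n → ℝ | (∀ i, |x i| ≤ a₁ i) ∧ |∑ i, x i| ≤ b₁}).toReal ^ lam
      ≤ (volume {x : Fin n → ℝ | (∀ i, |x i| ≤ a₀ i ^ (1 - lam) * a₁ i ^ lam)
          ∧ |∑ i, x i| ≤ b₀ ^ (1 - lam) * b₁ ^ lam}).toReal :=
  Vale.Agent.Lib.P227.boxSection_logconcave ha₀ ha₁ hb₀ hb₁ h0 h1

end Vale.Agent.Results.P227.A_boxsection
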