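import Mathlib
import Vale.Agent.Lib.P227.NetGeom

/-!
Log-concavity of the volume in the logarithms of the heights for the polytopes attached to
two-terminal series-parallel networks.
-/

namespace Vale.Agent.Results.P227.C_seriesparallel

open MeasureTheory Vale.Agent.Lib.P227

/-- Let `Z` be a two-terminal series-parallel network, with edges `Z.Edge` and inner vertices
`Z.Inner`. The polytope `Z.body h` consists of the potentials on the vertices, with potential `0`
at the first terminal, whose difference along every edge `e` has absolute value at most `h e`.
It has positive finite volume, and this volume is log-concave in the logarithms of the heights. -/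
theorem result (Z : Net) (h h' : Z.Edge → ℝ) (hh : ∀ e, 0 < h e) (hh' : ∀ e, 0 < h' e)
    (lam : ℝ) (h0 : 0 ≤ lam) (h1 : lam ≤ 1) :
    0 < (volume (Z.body h)).toReal ∧
      (volume (Z.body h)).toReal ^ (1 - lam) * (volume (Z.body h')).toReal ^ lam
        ≤ (volume (Z.body (fun e => h e ^ (1 - lam) * h' e ^ lam))).toReal :=
  ⟨Z.vol_body_pos hh, Z.vol_logconcave hh hh' h0 h1⟩

end Vale.Agent.Results.P227.C_seriesparallel
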