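import Mathlib
import Vale.Agent.Lib.P227.NetQ1

/-!
The logarithmic Brunn-Minkowski inequality, with the Wulff body of the geometric mean of the
support functions, for pairs of polytopes of a series-parallel network that have the same active
constraints in every direction.
-/

namespace Vale.Agent.Results.P227.D_samefan

open MeasureTheory Vale.Agent.Lib.P227

/-- Let `K = Z.body h` and `L = Z.body h'` be polytopes of a two-terminal series-parallel network
`Z`, such that in every unit direction they have maximizers with the same active constraints.
Then the logarithmic combination of `K` and `L` has volume at least `|K| ^ (1 - lam) * |L| ^ lam`. -/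
theorem result (Z : Net) (h h' : Z.Edge → ℝ) (hh : ∀ e, 0 < h e) (hh' : ∀ e, 0 < h' e)
    (hs : Z.SameActive h h') (lam : ℝ) (h0 : 0 ≤ lam) (h1 : lam ≤ 1) :
    volume (Z.body h) ^ (1 - lam) * volume (Z.body h') ^ lam
      ≤ volume (Z.logComb (Z.body h) (Z.body h') lam) :=
  Z.logComb_ineq hh hh' hs h0 h1

end Vale.Agent.Results.P227.D_samefan
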